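import Mathlib

namespace Vale.Agent.H15.P150

open Finset

noncomputable section

/-- The numerical value of a spin. -/
def sp (b : Bool) : ℝ := if b then 1 else -1

/-- `(β / √n) ∑_{i<j} g_ij x_i x_j`. -/
def energy {n : ℕ} (β : ℝ) (g : Fin n → Fin n → ℝ) (x : Fin n → Bool) : ℝ :=
  β / Real.sqrt n * ∑ i, ∑ j, if i < j then g i j * sp (x i) * sp (x j) else 0

/-- Weight of a configuration. -/
def wt {n : ℕ} (β : ℝ) (g : Fin n → Fin n → ℝ) (x : Fin n → Bool) : ℝ :=
  Real.exp (energy β g x)

/-- The Gibbs measure with weight `w`. -/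
def gibbs {n : ℕ} (w : (Fin n → Bool) → ℝ) (x : Fin n → Bool) : ℝ :=
  w x / ∑ z, w z

/-- Mean of `f`. -/
def mean {n : ℕ} (w : (Fin n → Bool) → ℝ) (f : (Fin n → Bool) → ℝ) : ℝ :=
  ∑ x, gibbs w x * f x

/-- Variance of `f`. -/
def variance {n : ℕ} (w : (Fin n → Bool) → ℝ) (f : (Fin n → Bool) → ℝ) : ℝ :=
  mean w (fun x => f x ^ 2) - mean w f ^ 2

/-- Heat-bath update at `i`: conditional expectation given the spins other than `i`. -/
def heat {n : ℕ} (w : (Fin n → Bool) → ℝ) (i : Fin n) (f : (Fin n → Bool) → ℝ)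
    (x : Fin n → Bool) : ℝ :=
  (w (Function.update x i true) * f (Function.update x i true)
      + w (Function.update x i false) * f (Function.update x i false)) /
    (w (Function.update x i true) + w (Function.update x i false))

/-- The Dirichlet form `⟨f, -L f⟩` of `L = ∑_i (Q_i - I)`. -/
def dirichlet {n : ℕ} (w : (Fin n → Bool) → ℝ) (f : (Fin n → Bool) → ℝ) : ℝ :=
  mean w (fun x => f x * ∑ i, (f x - heat w i f x))

/-- The spectral gap: the best constant in the Poincare inequality. -/
def gap {n : ℕ} (w : (Fin n → Bool) → ℝ) : ℝ :=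
  sSup {γ : ℝ | ∀ f : (Fin n → Bool) → ℝ, γ * variance w f ≤ dirichlet w f}

/-- Overlap of two configurations. -/
def overlap {n : ℕ} (x y : Fin n → Bool) : ℝ := (∑ i, sp (x i) * sp (y i)) / n

/-- Second moment of the overlap of two independent samples (replicas). -/
def overlapSq {n : ℕ} (w : (Fin n → Bool) → ℝ) : ℝ :=
  mean w (fun y => mean w (fun x => overlap x y ^ 2))

/-- disorder matrix from a vector indexed by pairs -/
def mat {n : ℕ} (G : Fin n × Fin n → ℝ) (i j : Fin n) : ℝ := G (i, j)

/-- law of the disorder: independent standard Gaussians indexed by ordered pairs -/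
abbrev disorder (n : ℕ) : MeasureTheory.Measure (Fin n × Fin n → ℝ) :=
  MeasureTheory.Measure.pi (fun _ : Fin n × Fin n => ProbabilityTheory.gaussianReal 0 1)

end

end Vale.Agent.H15.P150
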