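import Mathlib

namespace Vale.Agent.H15.P150

open MeasureTheory ProbabilityTheory

theorem measPres {ι : Type} [Fintype ι] [DecidableEq ι] (e : ι) :
    MeasurePreserving (fun p : (ι → ℝ) × ℝ => Function.update p.1 e p.2)
      ((Measure.pi (fun _ : ι => gaussianReal 0 1)).prod (gaussianReal 0 1))
      (Measure.pi (fun _ : ι => gaussianReal 0 1)) := by
  have hmeas : Measurable (fun p : (ι → ℝ) × ℝ => Function.update p.1 e p.2) := by
    apply measurable_pi_lambda
    intro i
    by_cases h : i = e
    · subst h; simpa using measurable_snd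
    · simp only [Function.update_of_ne h]
      exact (measurable_pi_apply i).comp measurable_fst
  refine ⟨hmeas, ?_⟩
  symm
  apply Measure.pi_eq
  intro s hs
  rw [Measure.map_apply hmeas (MeasurableSet.univ_pi hs)]
  have : (fun p : (ι → ℝ) × ℝ => Function.update p.1 e p.2) ⁻¹' (Set.pi Set.univ s)
      = (Set.pi Set.univ (Function.update s e Set.univ)) ×ˢ (s e) := by
    ext p
    simp only [Set.mem_preimage, Set.mem_pi, Set.mem_univ, true_implies, Set.mem_prod]
    constructor
    · intro h
      refine ⟨fun i => ?_, by simpa using h e⟩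
      by_cases hi : i = e
      · subst hi; simp
      · have := h i
        simpa [hi] using this
    · rintro ⟨h1, h2⟩ i
      by_cases hi : i = e
      · subst hi; simpa using h2
      · have := h1 i
        simpa [hi] using this
  rw [this, Measure.prod_prod, Measure.pi_pi]
  rw [← Finset.mul_prod_erase _ _ (Finset.mem_univ e),
    ← Finset.mul_prod_erase Finset.univ (fun i => gaussianReal 0 1 (s i)) (Finset.mem_univ e)]
  have h3 : ∏ x ∈ Finset.univ.erase e, (gaussianReal 0 1) (Function.update s e Set.univ x)
      = ∏ x ∈ Finset.univ.erase e, (gaussianReal 0 1) (s x) := by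
    apply Finset.prod_congr rfl
    intro x hx
    rw [Function.update_of_ne (Finset.ne_of_mem_erase hx)]
  rw [h3]
  simp [mul_comm]

theorem ibpPi (ibp1 : ∀ (f f' : ℝ → ℝ), (∀ t, HasDerivAt f (f' t) t) → ∀ C : ℝ,
      (∀ t, |f t| ≤ C) → (∀ t, |f' t| ≤ C) → Measurable f' →
      ∫ t, t * f t ∂(gaussianReal 0 1) = ∫ t, f' t ∂(gaussianReal 0 1))
    {ι : Type} [Fintype ι] [DecidableEq ι] (e : ι) (F F' : (ι → ℝ) → ℝ)
    (hF : Measurable F) (hF' : Measurable F') (C : ℝ) (hC : ∀ G, |F G| ≤ C)
    (hC' : ∀ G, |F' G| ≤ C)
    (hd : ∀ G t, HasDerivAt (fun t => F (Function.update G e t)) (F' (Function.update G e t)) t) :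
    ∫ G, G e * F G ∂(Measure.pi (fun _ : ι => gaussianReal 0 1))
      = ∫ G, F' G ∂(Measure.pi (fun _ : ι => gaussianReal 0 1)) := by
  have mp := measPres e
  have hmeas : Measurable (fun p : (ι → ℝ) × ℝ => Function.update p.1 e p.2) := mp.measurable
  have h1 : ∫ G, G e * F G ∂(Measure.pi (fun _ : ι => gaussianReal 0 1))
      = ∫ p, p.2 * F (Function.update p.1 e p.2)
          ∂((Measure.pi (fun _ : ι => gaussianReal 0 1)).prod (gaussianReal 0 1)) := by
    rw [← mp.map_eq, integral_map hmeas.aemeasurable]
    · simp [mp.map_eq]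
    · exact ((measurable_pi_apply e).mul hF).aestronglyMeasurable
  have h2 : ∫ G, F' G ∂(Measure.pi (fun _ : ι => gaussianReal 0 1))
      = ∫ p, F' (Function.update p.1 e p.2)
          ∂((Measure.pi (fun _ : ι => gaussianReal 0 1)).prod (gaussianReal 0 1)) := by
    rw [← mp.map_eq, integral_map hmeas.aemeasurable]
    · simp [mp.map_eq]
    · exact hF'.aestronglyMeasurable
  have hid : Integrable (fun t : ℝ => t) (gaussianReal 0 1) := by
    have := (memLp_id_gaussianReal (μ := 0) (v := 1) 1)
    have h2 : MemLp id 1 (gaussianReal 0 1) := by simpa using this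
    exact memLp_one_iff_integrable.mp h2
  rw [h1, h2, integral_prod, integral_prod]
  · apply integral_congr_ae
    filter_upwards with G
    exact ibp1 (fun t => F (Function.update G e t)) (fun t => F' (Function.update G e t))
      (fun t => hd G t) C (fun t => hC _) (fun t => hC' _)
      (hF'.comp (measurable_update G))
  · apply Integrable.of_bound (C := C)
    · exact (hF'.comp hmeas).aestronglyMeasurable
    · filter_upwards with p
      exact hC' _
  · have hI : Integrable (fun p : (ι → ℝ) × ℝ => C * |p.2|)
        ((Measure.pi (fun _ : ι => gaussianReal 0 1)).prod (gaussianReal 0 1)) := by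
      have := (hid.abs.const_mul C).comp_snd (Measure.pi (fun _ : ι => gaussianReal 0 1))
      exact this
    apply hI.mono'
    · exact (measurable_snd.mul (hF.comp hmeas)).aestronglyMeasurable
    · filter_upwards with p
      rw [Real.norm_eq_abs, abs_mul, mul_comm]
      exact mul_le_mul_of_nonneg_right (hC _) (abs_nonneg _)

end Vale.Agent.H15.P150
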