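import Vale.Agent.H15.P150.Main
import Vale.Agent.H15.P150.Ibp

namespace Vale.Agent.H15.P150

open MeasureTheory ProbabilityTheory Finset

noncomputable section

/-- coefficient of the disorder variable `e` at the configuration `x` -/
def cf {n : ℕ} (x : Fin n → Bool) (e : Fin n × Fin n) : ℝ :=
  if e.1 < e.2 then sp (x e.1) * sp (x e.2) else 0

lemma energy_eq {n : ℕ} (β : ℝ) (G : Fin n × Fin n → ℝ) (x : Fin n → Bool) :
    energy β (mat G) x = β / Real.sqrt n * ∑ e, cf x e * G e := by
  unfold energy
  congr 1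
  rw [Fintype.sum_prod_type]
  apply Finset.sum_congr rfl; intro i _
  apply Finset.sum_congr rfl; intro j _
  unfold cf mat
  split_ifs <;> simp <;> ring

lemma sum_update {ι : Type} [Fintype ι] [DecidableEq ι] (c G : ι → ℝ) (e : ι) (t : ℝ) :
    ∑ i, c i * Function.update G e t i = ∑ i, c i * G i + c e * (t - G e) := by
  rw [← Finset.add_sum_erase _ _ (Finset.mem_univ e),
    ← Finset.add_sum_erase _ (fun i => c i * G i) (Finset.mem_univ e)]
  have : ∑ x ∈ univ.erase e, c x * Function.update G e t x
      = ∑ x ∈ univ.erase e, c x * G x := by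
    apply Finset.sum_congr rfl
    intro x hx
    rw [Function.update_of_ne (Finset.ne_of_mem_erase hx)]
  rw [this]; simp; ring

/-- Gibbs mean of `cf · e` as a function of the disorder -/
def corr {n : ℕ} (β : ℝ) (e : Fin n × Fin n) (G : Fin n × Fin n → ℝ) : ℝ :=
  mean (wt β (mat G)) (fun x => cf x e)

lemma wt_eq {n : ℕ} (β : ℝ) (G : Fin n × Fin n → ℝ) (x : Fin n → Bool) :
    wt β (mat G) x = Real.exp (β / Real.sqrt n * ∑ e, cf x e * G e) := by
  unfold wt; rw [energy_eq]

lemma corr_eq {n : ℕ} (β : ℝ) (e : Fin n × Fin n) (G : Fin n × Fin n → ℝ) :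
    corr β e G = (∑ x, wt β (mat G) x * cf x e) / ∑ x, wt β (mat G) x := by
  unfold corr mean gibbs
  rw [Finset.sum_div]
  apply Finset.sum_congr rfl; intro x _
  ring

lemma wt_meas {n : ℕ} (β : ℝ) (x : Fin n → Bool) :
    Measurable (fun G : Fin n × Fin n → ℝ => wt β (mat G) x) := by
  have : (fun G : Fin n × Fin n → ℝ => wt β (mat G) x)
      = fun G => Real.exp (β / Real.sqrt n * ∑ e, cf x e * G e) := by
    funext G; exact wt_eq β G x
  rw [this]
  fun_prop

lemma mean_meas {n : ℕ} (β : ℝ) (f : (Fin n → Bool) → ℝ) :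
    Measurable (fun G : Fin n × Fin n → ℝ => mean (wt β (mat G)) f) := by
  unfold mean gibbs
  apply Finset.measurable_sum
  intro x _
  exact ((wt_meas β x).div (Finset.measurable_sum _ (fun z _ => wt_meas β z))).mul_const _

lemma abs_mean_le {n : ℕ} (w : (Fin n → Bool) → ℝ) (hw : ∀ x, 0 < w x)
    (f : (Fin n → Bool) → ℝ) (C : ℝ) (hf : ∀ x, |f x| ≤ C) : |mean w f| ≤ C := by
  have hZ := Z_pos w hw
  unfold mean
  calc |∑ x, gibbs w x * f x| ≤ ∑ x, |gibbs w x * f x| := Finset.abs_sum_le_sum_abs _ _
    _ ≤ ∑ x, gibbs w x * C := by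
        apply Finset.sum_le_sum; intro x _
        have h0 : 0 ≤ gibbs w x := div_nonneg (hw x).le hZ.le
        rw [abs_mul, abs_of_nonneg h0]
        exact mul_le_mul_of_nonneg_left (hf x) h0
    _ = C := by
        rw [← Finset.sum_mul]
        unfold gibbs
        rw [← Finset.sum_div, div_self hZ.ne', one_mul]

lemma cf_abs {n : ℕ} (x : Fin n → Bool) (e : Fin n × Fin n) : |cf x e| ≤ 1 := by
  unfold cf
  split_ifs
  · cases x e.1 <;> cases x e.2 <;> simp [sp]
  · simp

lemma cf_sq {n : ℕ} (x : Fin n → Bool) (e : Fin n × Fin n) (h : e.1 < e.2) :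
    cf x e * cf x e = 1 := by
  unfold cf
  rw [if_pos h]
  cases x e.1 <;> cases x e.2 <;> simp [sp]

/-- derivative of the correlation in its own coupling -/
lemma corr_deriv {n : ℕ} (β : ℝ) (e : Fin n × Fin n) (he : e.1 < e.2)
    (G : Fin n × Fin n → ℝ) (t : ℝ) :
    HasDerivAt (fun t => corr β e (Function.update G e t))
      (β / Real.sqrt n * (1 - corr β e (Function.update G e t) ^ 2)) t := by
  set κ := β / Real.sqrt n with hκ
  have hw : ∀ (x : Fin n → Bool) (t : ℝ), wt β (mat (Function.update G e t)) x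
      = Real.exp (κ * (∑ i, cf x i * G i + cf x e * (t - G e))) := by
    intro x t
    rw [wt_eq, sum_update]
  have hd : ∀ x : Fin n → Bool, HasDerivAt (fun t => wt β (mat (Function.update G e t)) x)
      (wt β (mat (Function.update G e t)) x * (κ * cf x e)) t := by
    intro x
    have h1 : HasDerivAt (fun t : ℝ => κ * (∑ i, cf x i * G i + cf x e * (t - G e)))
        (κ * cf x e) t := by
      have h0 : HasDerivAt (fun t : ℝ => t - G e) 1 t := (hasDerivAt_id t).sub_const _
      have := ((h0.const_mul (cf x e)).const_add (∑ i, cf x i * G i)).const_mul κ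
      simpa using this
    have h2 := h1.exp
    have e1 : (fun t => wt β (mat (Function.update G e t)) x)
        = fun t => Real.exp (κ * (∑ i, cf x i * G i + cf x e * (t - G e))) := by
      funext t; exact hw x t
    rw [e1, hw x t]
    exact h2
  have hN : HasDerivAt (fun t => ∑ x, wt β (mat (Function.update G e t)) x * cf x e)
      (∑ x, wt β (mat (Function.update G e t)) x * (κ * cf x e) * cf x e) t :=
    HasDerivAt.fun_sum (fun x _ => (hd x).mul_const _)
  have hZ : HasDerivAt (fun t => ∑ x, wt β (mat (Function.update G e t)) x)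
      (∑ x, wt β (mat (Function.update G e t)) x * (κ * cf x e)) t :=
    HasDerivAt.fun_sum (fun x _ => hd x)
  have hZp : 0 < ∑ x, wt β (mat (Function.update G e t)) x :=
    Z_pos _ (fun x => wt_pos β _ x)
  have hq := hN.div hZ hZp.ne'
  have e2 : (fun t => corr β e (Function.update G e t))
      = fun t => (∑ x, wt β (mat (Function.update G e t)) x * cf x e)
        / ∑ x, wt β (mat (Function.update G e t)) x := by
    funext t; exact corr_eq β e _
  rw [e2]
  refine hq.congr_deriv ?_
  rw [corr_eq]
  have e3 : ∑ x, wt β (mat (Function.update G e t)) x * (κ * cf x e) * cf x e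
      = κ * ∑ x, wt β (mat (Function.update G e t)) x := by
    rw [Finset.mul_sum]
    apply Finset.sum_congr rfl; intro x _
    have := cf_sq x e he
    linear_combination (wt β (mat (Function.update G e t)) x * κ) * this
  have e4 : ∑ x, wt β (mat (Function.update G e t)) x * (κ * cf x e)
      = κ * ∑ x, wt β (mat (Function.update G e t)) x * cf x e := by
    rw [Finset.mul_sum]
    apply Finset.sum_congr rfl; intro x _
    ring
  rw [e3, e4]
  field_simp

end

end Vale.Agent.H15.P150
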