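import Vale.Agent.H15.P150.Exp
import Vale.Agent.H18.P150.R1
import Vale.Agent.H25.P150R34

namespace Vale.Agent.H15.P150

open MeasureTheory ProbabilityTheory Finset

noncomputable section

lemma ibp_corr {n : ℕ} (β : ℝ) (e : Fin n × Fin n) (he : e.1 < e.2) :
    ∫ G, G e * corr β e G ∂(disorder n)
      = ∫ G, β / Real.sqrt n * (1 - corr β e G ^ 2) ∂(disorder n) := by
  have hb : ∀ G, |corr β e G| ≤ 1 := fun G =>
    abs_mean_le _ (fun x => wt_pos β _ x) _ 1 (fun x => cf_abs x e)
  refine ibpPi Vale.Agent.H18.P150.ibp1 e (corr β e)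
    (fun G => β / Real.sqrt n * (1 - corr β e G ^ 2)) (mean_meas β _) ?_
    (max 1 |β / Real.sqrt n|) ?_ ?_ (fun G t => corr_deriv β e he G t)
  · exact (measurable_const.sub ((mean_meas β _).pow_const 2)).const_mul _
  · intro G; exact (hb G).trans (le_max_left _ _)
  · intro G
    rw [abs_mul]
    refine le_trans ?_ (le_max_right _ _)
    have h1 : |1 - corr β e G ^ 2| ≤ 1 := by
      have := hb G
      rw [abs_le] at this ⊢
      constructor <;> nlinarith [sq_nonneg (corr β e G)]
    calc _ ≤ |β / Real.sqrt n| * 1 := mul_le_mul_of_nonneg_left h1 (abs_nonneg _)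
      _ = _ := mul_one _

/-- averaged energy -/
def avE {n : ℕ} (β : ℝ) (G : Fin n × Fin n → ℝ) : ℝ :=
  mean (wt β (mat G)) (fun x => ∑ e, cf x e * G e)

lemma avE_eq {n : ℕ} (β : ℝ) (G : Fin n × Fin n → ℝ) :
    avE β G = ∑ e, G e * corr β e G := by
  unfold avE corr mean
  have : ∀ x : Fin n → Bool, gibbs (wt β (mat G)) x * ∑ e, cf x e * G e
      = ∑ e, G e * (gibbs (wt β (mat G)) x * cf x e) := by
    intro x; rw [Finset.mul_sum]; apply Finset.sum_congr rfl; intro e _; ring
  simp_rw [this]
  rw [Finset.sum_comm]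
  apply Finset.sum_congr rfl; intro e _
  rw [Finset.mul_sum]

lemma int_eval {n : ℕ} (e : Fin n × Fin n) :
    Integrable (fun G : Fin n × Fin n → ℝ => G e) (disorder n) := by
  have hid : Integrable (fun t : ℝ => t) (gaussianReal 0 1) := by
    have := (memLp_id_gaussianReal (μ := 0) (v := 1) 1)
    have h2 : MemLp id 1 (gaussianReal 0 1) := by simpa using this
    exact memLp_one_iff_integrable.mp h2
  exact (measurePreserving_eval (fun _ : Fin n × Fin n => gaussianReal 0 1) e).integrable_comp_of_integrable hid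

lemma int_term {n : ℕ} (β : ℝ) (e : Fin n × Fin n) :
    Integrable (fun G => G e * corr β e G) (disorder n) := by
  apply (int_eval e).abs.mono'
  · exact ((measurable_pi_apply e).mul (mean_meas β _)).aestronglyMeasurable
  · filter_upwards with G
    rw [Real.norm_eq_abs, abs_mul]
    have hb : |corr β e G| ≤ 1 :=
      abs_mean_le _ (fun x => wt_pos β _ x) _ 1 (fun x => cf_abs x e)
    calc _ ≤ |G e| * 1 := mul_le_mul_of_nonneg_left hb (abs_nonneg _)
      _ = _ := mul_one _

lemma half_sum {n : ℕ} (h : Fin n → Fin n → ℝ) (hs : ∀ i j, h i j = h j i)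
    (h0 : ∀ i, h i i = 0) :
    ∑ i, ∑ j, (if i < j then h i j else 0) = (∑ i, ∑ j, h i j) / 2 := by
  have h1 : ∑ i, ∑ j, h i j = ∑ i, ∑ j, (if i < j then h i j else 0)
      + ∑ i, ∑ j, (if j < i then h i j else 0) := by
    rw [← Finset.sum_add_distrib]
    apply Finset.sum_congr rfl; intro i _
    rw [← Finset.sum_add_distrib]
    apply Finset.sum_congr rfl; intro j _
    rcases lt_trichotomy i j with h | h | h
    · simp [h, h.not_gt]
    · subst h; simp [h0]
    · simp [h, h.not_gt]
  have h2 : ∑ i, ∑ j, (if j < i then h i j else 0)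
      = ∑ i, ∑ j, (if i < j then h i j else 0) := by
    rw [Finset.sum_comm]
    apply Finset.sum_congr rfl; intro i _
    apply Finset.sum_congr rfl; intro j _
    rw [hs]
  rw [h1, h2]; ring

lemma overlap_eq {n : ℕ} (hn : 0 < n) (w : (Fin n → Bool) → ℝ) :
    (n : ℝ) ^ 2 * overlapSq w
      = ∑ i, ∑ j, mean w (fun x => sp (x i) * sp (x j)) ^ 2 := by
  have hn' : (n : ℝ) ≠ 0 := by exact_mod_cast hn.ne'
  unfold overlapSq mean overlap
  have e1 : ∀ y x : Fin n → Bool, ((∑ i, sp (x i) * sp (y i)) / (n : ℝ)) ^ 2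
      = (∑ i, ∑ j, (sp (x i) * sp (x j)) * (sp (y i) * sp (y j))) / (n : ℝ) ^ 2 := by
    intro y x
    rw [div_pow, pow_two (∑ i, sp (x i) * sp (y i)), Finset.sum_mul_sum]
    congr 1
    apply Finset.sum_congr rfl; intro i _
    apply Finset.sum_congr rfl; intro j _
    ring
  simp_rw [e1]
  have e2 : ∀ y : Fin n → Bool, ∑ x, gibbs w x *
      ((∑ i, ∑ j, (sp (x i) * sp (x j)) * (sp (y i) * sp (y j))) / (n : ℝ) ^ 2)
      = (∑ i, ∑ j, (∑ x, gibbs w x * (sp (x i) * sp (x j))) * (sp (y i) * sp (y j)))
        / (n : ℝ) ^ 2 := by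
    intro y
    simp_rw [← mul_div_assoc, ← Finset.sum_div]
    congr 1
    simp_rw [Finset.mul_sum, Finset.sum_mul]
    rw [Finset.sum_comm]
    apply Finset.sum_congr rfl; intro i _
    rw [Finset.sum_comm]
    apply Finset.sum_congr rfl; intro j _
    apply Finset.sum_congr rfl; intro x _
    ring
  simp_rw [e2, ← mul_div_assoc, ← Finset.sum_div]
  rw [mul_comm, div_mul_cancel₀]
  · simp_rw [Finset.mul_sum]
    rw [Finset.sum_comm]
    apply Finset.sum_congr rfl; intro i _
    rw [Finset.sum_comm]
    apply Finset.sum_congr rfl; intro j _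
    rw [pow_two, Finset.mul_sum]
    apply Finset.sum_congr rfl; intro y _
    ring
  · positivity

lemma sum_corr {n : ℕ} (hn : 0 < n) (β : ℝ) (G : Fin n × Fin n → ℝ) :
    ∑ e : Fin n × Fin n, (if e.1 < e.2 then 1 - corr β e G ^ 2 else 0)
      = (n : ℝ) ^ 2 * (1 - overlapSq (wt β (mat G))) / 2 := by
  set w := wt β (mat G) with hwdef
  have hw : ∀ x, 0 < w x := fun x => wt_pos β _ x
  have hone : mean w (fun _ => 1) = 1 := by
    unfold mean gibbs
    simp only [mul_one]
    rw [← Finset.sum_div, div_self (Z_pos w hw).ne']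
  rw [Fintype.sum_prod_type]
  have h1 : ∑ i, ∑ j, (if ((i, j) : Fin n × Fin n).1 < ((i, j) : Fin n × Fin n).2
        then 1 - corr β (i, j) G ^ 2 else 0)
      = ∑ i, ∑ j, (if i < j then 1 - mean w (fun x => sp (x i) * sp (x j)) ^ 2 else 0) := by
    apply Finset.sum_congr rfl; intro i _
    apply Finset.sum_congr rfl; intro j _
    by_cases hij : i < j
    · simp only [hij, if_true]
      unfold corr
      have : (fun x : Fin n → Bool => cf x (i, j)) = fun x => sp (x i) * sp (x j) := by
        funext x; simp [cf, hij]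
      rw [this]
    · simp only [hij, if_false]
  rw [h1, half_sum (fun i j => 1 - mean w (fun x => sp (x i) * sp (x j)) ^ 2)]
  · congr 1
    rw [mul_sub, overlap_eq hn]
    simp only [Finset.sum_sub_distrib, Finset.sum_const, Finset.card_univ, Fintype.card_fin,
      nsmul_eq_mul]
    ring
  · intro i j
    simp_rw [mul_comm]
  · intro i
    simp_rw [sp_sq]
    rw [hone]; ring

lemma cf_sum {n : ℕ} (x : Fin n → Bool) : ∑ e, cf x e ^ 2 ≤ (n : ℝ) ^ 2 / 2 := by
  have h1 : ∑ e, cf x e ^ 2
      = ∑ i : Fin n, ∑ j : Fin n, (if i < j then (if i = j then (0 : ℝ) else 1) else 0) := by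
    rw [Fintype.sum_prod_type]
    apply Finset.sum_congr rfl; intro i _
    apply Finset.sum_congr rfl; intro j _
    by_cases hij : i < j
    · have := cf_sq x (i, j) hij
      rw [pow_two, this]; simp [hij, hij.ne]
    · simp [cf, hij]
  rw [h1, half_sum (fun i j => if i = j then (0 : ℝ) else 1)]
  · have : ∑ i : Fin n, ∑ j : Fin n, (if i = j then (0 : ℝ) else 1) ≤ ∑ _i : Fin n, ∑ _j : Fin n, 1 := by
      apply Finset.sum_le_sum; intro i _
      apply Finset.sum_le_sum; intro j _
      split_ifs <;> norm_num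
    have h3 : ∑ _i : Fin n, ∑ _j : Fin n, (1 : ℝ) = (n : ℝ) ^ 2 := by
      simp [pow_two]
    linarith
  · intro i j; simp [eq_comm]
  · intro i; simp

lemma mean_le_log {n : ℕ} (w : (Fin n → Bool) → ℝ) (hw : ∀ x, 0 < w x)
    (f : (Fin n → Bool) → ℝ) (l : ℝ) (hl : 0 < l) :
    l * mean w f ≤ Real.log (∑ x, Real.exp (l * f x)) := by
  have hZ := Z_pos w hw
  have hg : ∑ y, gibbs w y = 1 := by
    unfold gibbs; rw [← Finset.sum_div, div_self hZ.ne']
  have hg0 : ∀ y, 0 < gibbs w y := fun y => div_pos (hw y) hZ
  obtain ⟨x, hx⟩ : ∃ x, mean w f ≤ f x := by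
    by_contra hcon
    push Not at hcon
    have : mean w f < mean w f := by
      calc mean w f = ∑ x, gibbs w x * f x := rfl
        _ < ∑ x, gibbs w x * mean w f :=
            Finset.sum_lt_sum_of_nonempty Finset.univ_nonempty
              (fun x _ => mul_lt_mul_of_pos_left (hcon x) (hg0 x))
        _ = mean w f := by rw [← Finset.sum_mul, hg, one_mul]
    exact lt_irrefl _ this
  calc l * mean w f ≤ l * f x := mul_le_mul_of_nonneg_left hx hl.le
    _ = Real.log (Real.exp (l * f x)) := (Real.log_exp _).symm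
    _ ≤ _ := Real.log_le_log (Real.exp_pos _)
        (Finset.single_le_sum (f := fun x => Real.exp (l * f x)) (fun y _ => (Real.exp_pos _).le) (Finset.mem_univ x))

/-- the Dirichlet form is nonnegative -/
lemma dirichlet_nonneg {n : ℕ} (w : (Fin n → Bool) → ℝ) (hw : ∀ x, 0 < w x)
    (f : (Fin n → Bool) → ℝ) : 0 ≤ dirichlet w f := by
  have hZ := Z_pos w hw
  have e : dirichlet w f = (∑ i, ∑ x, w x * (f x * (f x - heat w i f x))) / ∑ z, w z := by
    unfold dirichlet mean gibbs
    rw [Finset.sum_comm, Finset.sum_div]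
    apply Finset.sum_congr rfl; intro x _
    beta_reduce
    rw [Finset.mul_sum, Finset.mul_sum, Finset.sum_div]
    apply Finset.sum_congr rfl; intro i _
    ring
  rw [e]
  apply div_nonneg _ hZ.le
  apply Finset.sum_nonneg; intro i _
  have h2 : ∑ x, w x * (f x * (f x - heat w i f x))
      = ∑ x, w (flipAt i x) * (f (flipAt i x) * (f (flipAt i x) - heat w i f (flipAt i x))) := by
    rw [sum_flip i]
  have h3 : 0 ≤ ∑ x, w x * (f x * (f x - heat w i f x))
      + ∑ x, w (flipAt i x) * (f (flipAt i x) * (f (flipAt i x) - heat w i f (flipAt i x))) := by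
    rw [← Finset.sum_add_distrib]
    apply Finset.sum_nonneg; intro x _
    have hx : x = Function.update x i (x i) := by simp
    have hh : heat w i f (flipAt i x) = heat w i f x := by
      unfold heat; simp only [update_flipAt]
    rw [hh]
    have key : ∀ a b u v : ℝ, 0 < a → 0 < b →
        0 ≤ a * (u * (u - (a * u + b * v) / (a + b))) + b * (v * (v - (a * u + b * v) / (a + b))) := by
      intro a b u v ha hb
      have : a * (u * (u - (a * u + b * v) / (a + b))) + b * (v * (v - (a * u + b * v) / (a + b)))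
          = a * b * (u - v) ^ 2 / (a + b) := by
        field_simp
        ring
      rw [this]; positivity
    have hT := hw (Function.update x i true)
    have hF := hw (Function.update x i false)
    cases hb : x i
    · have e1 : flipAt i x = Function.update x i true := by simp [flipAt, hb]
      have e2 : x = Function.update x i false := by conv_lhs => rw [hx, hb]
      have k := key _ _ (f (Function.update x i true)) (f (Function.update x i false)) hT hF
      rw [e1]
      have e3 : w x = w (Function.update x i false) := congrArg w e2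
      have e4 : f x = f (Function.update x i false) := congrArg f e2
      rw [e3, e4]
      unfold heat
      linarith
    · have e1 : flipAt i x = Function.update x i false := by simp [flipAt, hb]
      have e2 : x = Function.update x i true := by conv_lhs => rw [hx, hb]
      have k := key _ _ (f (Function.update x i true)) (f (Function.update x i false)) hT hF
      rw [e1]
      have e3 : w x = w (Function.update x i true) := congrArg w e2
      have e4 : f x = f (Function.update x i true) := congrArg f e2
      rw [e3, e4]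
      unfold heat
      linarith
  linarith

lemma int_avE {n : ℕ} (β : ℝ) : Integrable (avE (n := n) β) (disorder n) := by
  have : avE (n := n) β = fun G => ∑ e, G e * corr β e G := by funext G; exact avE_eq β G
  rw [this]
  exact integrable_finset_sum _ (fun e _ => int_term β e)

lemma int_overlap {n : ℕ} (β : ℝ) :
    Integrable (fun G => overlapSq (wt β (mat G))) (disorder n) := by
  have hb : ∀ (w : (Fin n → Bool) → ℝ), (∀ x, 0 < w x) → |overlapSq w| ≤ 1 := by
    intro w hw
    unfold overlapSq
    apply abs_mean_le w hw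
    intro y
    apply abs_mean_le w hw
    intro x
    rw [abs_of_nonneg (sq_nonneg _), sq_le_one_iff_abs_le_one]
    unfold overlap
    rw [abs_div, abs_of_nonneg (Nat.cast_nonneg n : (0 : ℝ) ≤ n)]
    apply div_le_one_of_le₀ _ (Nat.cast_nonneg n)
    calc |∑ i, sp (x i) * sp (y i)| ≤ ∑ i, |sp (x i) * sp (y i)| :=
          Finset.abs_sum_le_sum_abs _ _
      _ ≤ ∑ _i : Fin n, (1 : ℝ) := by
          apply Finset.sum_le_sum; intro i _
          cases x i <;> cases y i <;> simp [sp]
      _ = n := by simp
  apply Integrable.of_bound (C := 1)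
  · apply Measurable.aestronglyMeasurable
    have : (fun G : Fin n × Fin n → ℝ => overlapSq (wt β (mat G)))
        = fun G => ∑ y, gibbs (wt β (mat G)) y * mean (wt β (mat G)) (fun x => overlap x y ^ 2) := rfl
    rw [this]
    apply Finset.measurable_sum
    intro y _
    apply Measurable.mul _ (mean_meas β _)
    exact (wt_meas β y).div (Finset.measurable_sum _ (fun z _ => wt_meas β z))
  · filter_upwards with G
    exact hb _ (fun x => wt_pos β _ x)

lemma int_avE_eq {n : ℕ} (hn : 0 < n) (β : ℝ) :
    ∫ G, avE β G ∂(disorder n) = β / Real.sqrt n *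
      ((n : ℝ) ^ 2 * (1 - ∫ G, overlapSq (wt β (mat G)) ∂(disorder n)) / 2) := by
  have h1 : ∫ G, avE β G ∂(disorder n)
      = ∑ e, ∫ G, G e * corr β e G ∂(disorder n) := by
    have : avE (n := n) β = fun G => ∑ e, G e * corr β e G := by funext G; exact avE_eq β G
    rw [this, integral_finset_sum _ (fun e _ => int_term β e)]
  have hcint : ∀ e : Fin n × Fin n, Integrable
      (fun G => (if e.1 < e.2 then 1 - corr β e G ^ 2 else 0)) (disorder n) := by
    intro e
    apply Integrable.of_bound (C := 1)
    · apply Measurable.aestronglyMeasurable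
      by_cases h : e.1 < e.2
      · simp only [h, if_true]
        exact measurable_const.sub ((mean_meas β _).pow_const 2)
      · simp only [h, if_false]; exact measurable_const
    · filter_upwards with G
      have hb : |corr β e G| ≤ 1 :=
        abs_mean_le _ (fun x => wt_pos β _ x) _ 1 (fun x => cf_abs x e)
      split_ifs
      · rw [Real.norm_eq_abs]
        rw [abs_le] at hb ⊢
        constructor <;> nlinarith [sq_nonneg (corr β e G)]
      · simp
  have h2 : ∀ e : Fin n × Fin n, ∫ G, G e * corr β e G ∂(disorder n)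
      = β / Real.sqrt n * ∫ G, (if e.1 < e.2 then 1 - corr β e G ^ 2 else 0) ∂(disorder n) := by
    intro e
    by_cases h : e.1 < e.2
    · rw [ibp_corr β e h, integral_const_mul]
      simp only [h, if_true]
    · have h0 : ∀ G : Fin n × Fin n → ℝ, corr β e G = 0 := by
        intro G
        unfold corr mean
        apply Finset.sum_eq_zero; intro x _
        simp [cf, h]
      simp [h0, h]
  rw [h1]
  simp_rw [h2]
  rw [← Finset.mul_sum, ← integral_finset_sum _ (fun e _ => hcint e)]
  simp_rw [sum_corr hn]
  congr 1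
  rw [integral_div, integral_const_mul, integral_sub (integrable_const _) (int_overlap β)]
  simp

theorem expected_overlap {n : ℕ} (hn : 0 < n) (β : ℝ) (hβ : 0 < β) :
    1 - 2 * Real.sqrt (Real.log 2) / β ≤ ∫ G, overlapSq (wt β (mat G)) ∂(disorder n) := by
  set R := ∫ G, overlapSq (wt β (mat G)) ∂(disorder n) with hR
  set a := Real.sqrt (Real.log 2) with ha
  set s := Real.sqrt n with hs
  have hnr : (0 : ℝ) < n := by exact_mod_cast hn
  have hlog : 0 < Real.log 2 := Real.log_pos (by norm_num)
  have ha0 : 0 < a := Real.sqrt_pos.mpr hlog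
  have ha2 : a ^ 2 = Real.log 2 := Real.sq_sqrt hlog.le
  have hs0 : 0 < s := Real.sqrt_pos.mpr hnr
  have hs2 : s ^ 2 = n := Real.sq_sqrt hnr.le
  have hl : 0 < 2 * a / s := by positivity
  have hmax := Vale.Agent.H25.P150.maxBound (ι := Fin n × Fin n) (X := Fin n → Bool)
    (fun x e => cf x e) ((n : ℝ) ^ 2 / 2) (fun x => cf_sum x) (2 * a / s) hl (avE β)
    (int_avE β) (fun G => mean_le_log _ (fun x => wt_pos β _ x) _ _ hl)
  have hE := int_avE_eq hn β
  rw [← hR, ← hs] at hE
  have hcard : Real.log (Fintype.card (Fin n → Bool)) = s ^ 2 * a ^ 2 := by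
    rw [hs2, ha2]
    simp [Real.log_pow]
  change 2 * a / s * ∫ G, avE β G ∂(disorder n) ≤ _ at hmax
  rw [hE, hcard, ← hs2] at hmax
  have h1 : 2 * a / s * (β / s * ((s ^ 2) ^ 2 * (1 - R) / 2)) = a * s ^ 2 * (β * (1 - R)) := by
    field_simp
  have h2 : s ^ 2 * a ^ 2 + (2 * a / s) ^ 2 * ((s ^ 2) ^ 2 / 2) / 2 = a * s ^ 2 * (2 * a) := by
    field_simp
    ring
  rw [h1, h2] at hmax
  have h3 : β * (1 - R) ≤ 2 * a := le_of_mul_le_mul_left hmax (by positivity)
  have h4 : 1 - R ≤ 2 * a / β := by
    rw [le_div_iff₀ hβ]; linarith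
  linarith

theorem slow_prob {n : ℕ} (hn : 0 < n) (β : ℝ) (hβ : 0 < β) (c : ℝ)
    (hc : c = 1 - 2 * Real.sqrt (Real.log 2) / β) (hc0 : 0 < c) :
    c / 2 ≤ (disorder n).real {G | c / 2 ≤ overlapSq (wt β (mat G))} := by
  have h1 := expected_overlap hn β hβ
  rw [← hc] at h1
  have hmeas : MeasurableSet {G : Fin n × Fin n → ℝ | c / 2 ≤ overlapSq (wt β (mat G))} := by
    apply measurableSet_le measurable_const
    have : (fun G : Fin n × Fin n → ℝ => overlapSq (wt β (mat G)))
        = fun G => ∑ y, gibbs (wt β (mat G)) y * mean (wt β (mat G)) (fun x => overlap x y ^ 2) := rfl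
    rw [this]
    apply Finset.measurable_sum
    intro y _
    apply Measurable.mul _ (mean_meas β _)
    exact (wt_meas β y).div (Finset.measurable_sum _ (fun z _ => wt_meas β z))
  set A := {G : Fin n × Fin n → ℝ | c / 2 ≤ overlapSq (wt β (mat G))} with hA
  have hb : ∀ G, overlapSq (wt β (mat G)) ≤ A.indicator (fun _ => (1 : ℝ)) G + c / 2 := by
    intro G
    by_cases hG : G ∈ A
    · rw [Set.indicator_of_mem hG]
      have : |overlapSq (wt β (mat G))| ≤ 1 := by
        have hw : ∀ x, 0 < wt β (mat G) x := fun x => wt_pos β _ x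
        unfold overlapSq
        apply abs_mean_le _ hw
        intro y
        apply abs_mean_le _ hw
        intro x
        rw [abs_of_nonneg (sq_nonneg _), sq_le_one_iff_abs_le_one]
        unfold overlap
        rw [abs_div, abs_of_nonneg (Nat.cast_nonneg n : (0 : ℝ) ≤ n)]
        apply div_le_one_of_le₀ _ (Nat.cast_nonneg n)
        calc |∑ i, sp (x i) * sp (y i)| ≤ ∑ i, |sp (x i) * sp (y i)| :=
              Finset.abs_sum_le_sum_abs _ _
          _ ≤ ∑ _i : Fin n, (1 : ℝ) := by
              apply Finset.sum_le_sum; intro i _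
              cases x i <;> cases y i <;> simp [sp]
          _ = n := by simp
      have := (abs_le.mp this).2
      linarith
    · rw [Set.indicator_of_notMem hG]
      have : overlapSq (wt β (mat G)) < c / 2 := by
        by_contra hcon
        exact hG (not_lt.mp hcon)
      linarith
  have hint : Integrable (fun G => A.indicator (fun _ => (1 : ℝ)) G + c / 2) (disorder n) :=
    ((integrable_const 1).indicator hmeas).add (integrable_const _)
  have h2 : ∫ G, overlapSq (wt β (mat G)) ∂(disorder n)
      ≤ ∫ G, (A.indicator (fun _ => (1 : ℝ)) G + c / 2) ∂(disorder n) :=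
    integral_mono (int_overlap β) hint hb
  rw [integral_add ((integrable_const 1).indicator hmeas) (integrable_const _),
    integral_indicator_const _ hmeas] at h2
  simp at h2
  linarith

end

end Vale.Agent.H15.P150
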