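import Vale.Agent.H15.P150.Fin

namespace Vale.Agent.H15.P150

open MeasureTheory ProbabilityTheory

/-- Heat-bath dynamics of the zero-field Sherrington-Kirkpatrick model.
(1) For every disorder, every `β` and every `n ≥ 2`: `gap * n * ⟨R²⟩ ≤ 1`.
(2) For every fixed `β > 2 √(log 2)`, with `c = 1 - 2 √(log 2) / β > 0`, for every `n ≥ 2`:
`E ⟨R²⟩ ≥ c`, `E [1 / gap] ≥ c n`, and `1 / gap ≥ c n / 2` with probability at least `c / 2`. -/
theorem mainResult :
    (∀ (n : ℕ), 2 ≤ n → ∀ (β : ℝ) (g : Fin n → Fin n → ℝ),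
      gap (wt β g) * (n * overlapSq (wt β g)) ≤ 1) ∧
    (∀ β : ℝ, 2 * Real.sqrt (Real.log 2) < β → ∀ n : ℕ, 2 ≤ n →
      0 < 1 - 2 * Real.sqrt (Real.log 2) / β ∧
      1 - 2 * Real.sqrt (Real.log 2) / β
        ≤ ∫ G, overlapSq (wt β (mat G)) ∂(disorder n) ∧
      ENNReal.ofReal ((1 - 2 * Real.sqrt (Real.log 2) / β) * n)
        ≤ ∫⁻ G, (ENNReal.ofReal (gap (wt β (mat G))))⁻¹ ∂(disorder n) ∧
      (1 - 2 * Real.sqrt (Real.log 2) / β) / 2
        ≤ (disorder n).real {G | gap (wt β (mat G))
            ≤ 2 / ((1 - 2 * Real.sqrt (Real.log 2) / β) * n)}) := by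
  refine ⟨fun n hn β g => gap_bound (by omega) _ (wt_pos β g) (wt_symm β g), ?_⟩
  intro β hβ n hn
  have hn0 : 0 < n := by omega
  have hnr : (0 : ℝ) < n := by exact_mod_cast hn0
  have hlog : 0 < Real.log 2 := Real.log_pos (by norm_num)
  have ha0 : 0 < Real.sqrt (Real.log 2) := Real.sqrt_pos.mpr hlog
  have hβ0 : 0 < β := by linarith
  have hc0 : 0 < 1 - 2 * Real.sqrt (Real.log 2) / β := by
    rw [sub_pos, div_lt_one hβ0]; exact hβ
  have hE := expected_overlap hn0 β hβ0
  have hP := slow_prob hn0 β hβ0 _ rfl hc0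
  set c := 1 - 2 * Real.sqrt (Real.log 2) / β with hc
  have hgap : ∀ G : Fin n × Fin n → ℝ,
      gap (wt β (mat G)) * (n * overlapSq (wt β (mat G))) ≤ 1 :=
    fun G => gap_bound hn0 _ (wt_pos β (mat G)) (wt_symm β (mat G))
  have hR0 : ∀ G : Fin n × Fin n → ℝ, 0 ≤ overlapSq (wt β (mat G)) := by
    intro G
    have hZ := Z_pos (wt β (mat G)) (fun x => wt_pos β (mat G) x)
    unfold overlapSq mean
    apply Finset.sum_nonneg; intro y _
    apply mul_nonneg (div_nonneg (wt_pos β (mat G) y).le hZ.le)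
    apply Finset.sum_nonneg; intro x _
    exact mul_nonneg (div_nonneg (wt_pos β (mat G) x).le hZ.le) (sq_nonneg _)
  refine ⟨hc0, hE, ?_, ?_⟩
  · have h1 : ∀ G : Fin n × Fin n → ℝ,
        ENNReal.ofReal (n * overlapSq (wt β (mat G)))
          ≤ (ENNReal.ofReal (gap (wt β (mat G))))⁻¹ := by
      intro G
      rw [ENNReal.le_inv_iff_mul_le, ← ENNReal.ofReal_mul' ?_]
      · rw [ENNReal.ofReal_le_one, mul_comm]
        by_cases hg : 0 ≤ gap (wt β (mat G))
        · exact hgap G
        · exact hgap G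
      · by_contra hcon
        exact hcon (by
          have h0 : (0 : ℝ) ≤ gap (wt β (mat G)) := by
            apply Real.sSup_nonneg'
            exact ⟨0, by
              intro f
              rw [zero_mul]
              exact dirichlet_nonneg _ (fun x => wt_pos β (mat G) x) f, le_rfl⟩
          exact h0)
    calc ENNReal.ofReal (c * n)
        ≤ ENNReal.ofReal (∫ G, (n * overlapSq (wt β (mat G))) ∂(disorder n)) := by
          apply ENNReal.ofReal_le_ofReal
          rw [integral_const_mul, mul_comm]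
          exact mul_le_mul_of_nonneg_left hE hnr.le
      _ = ∫⁻ G, ENNReal.ofReal (n * overlapSq (wt β (mat G))) ∂(disorder n) := by
          rw [ofReal_integral_eq_lintegral_ofReal ((int_overlap β).const_mul _)]
          filter_upwards with G
          exact mul_nonneg hnr.le (hR0 G)
      _ ≤ _ := lintegral_mono h1
  · refine hP.trans ?_
    refine measureReal_mono ?_ (measure_ne_top _ _)
    intro G hG
    have hG' : c / 2 ≤ overlapSq (wt β (mat G)) := hG
    change gap (wt β (mat G)) ≤ 2 / (c * n)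
    rw [le_div_iff₀ (by positivity)]
    have h := hgap G
    rcases le_or_gt 0 (gap (wt β (mat G))) with hg | hg
    · have h5 : gap (wt β (mat G)) * (n * (c / 2))
          ≤ gap (wt β (mat G)) * (n * overlapSq (wt β (mat G))) := by
        apply mul_le_mul_of_nonneg_left _ hg
        exact mul_le_mul_of_nonneg_left hG' hnr.le
      nlinarith
    · have : gap (wt β (mat G)) * (c * n) ≤ 0 :=
        mul_nonpos_of_nonpos_of_nonneg hg.le (by positivity)
      linarith

end Vale.Agent.H15.P150
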