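import Vale.Agent.H15.P150.Defs

namespace Vale.Agent.H15.P150

open Finset

noncomputable section

lemma sp_sq (b : Bool) : sp b * sp b = 1 := by cases b <;> simp [sp]

lemma sp_not (b : Bool) : sp (!b) = - sp b := by cases b <;> simp [sp]

/-- flip the spin at `i` -/
def flipAt {n : ℕ} (i : Fin n) (x : Fin n → Bool) : Fin n → Bool :=
  Function.update x i (!(x i))

lemma flipAt_invol {n : ℕ} (i : Fin n) : Function.Involutive (flipAt (n := n) i) := by
  intro x
  funext j
  by_cases h : j = i
  · subst h; simp [flipAt]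
  · simp [flipAt, h]

lemma update_flipAt {n : ℕ} (i : Fin n) (x : Fin n → Bool) (b : Bool) :
    Function.update (flipAt i x) i b = Function.update x i b := by
  simp [flipAt]

lemma sum_flip {n : ℕ} (i : Fin n) (F : (Fin n → Bool) → ℝ) :
    ∑ x, F x = ∑ x, F (flipAt i x) := by
  exact (Equiv.sum_comp (Equiv.ofBijective (flipAt i) (flipAt_invol i).bijective) F).symm

/-- local magnetisation -/
def mag {n : ℕ} (w : (Fin n → Bool) → ℝ) (i : Fin n) (x : Fin n → Bool) : ℝ :=
  (w (Function.update x i true) - w (Function.update x i false)) /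
    (w (Function.update x i true) + w (Function.update x i false))

lemma mag_flip {n : ℕ} (w : (Fin n → Bool) → ℝ) (i : Fin n) (x : Fin n → Bool) :
    mag w i (flipAt i x) = mag w i x := by
  simp only [mag, update_flipAt]

/-- pair identity -/
lemma pair_zero {n : ℕ} (w : (Fin n → Bool) → ℝ) (hw : ∀ x, 0 < w x) (i : Fin n)
    (x : Fin n → Bool) :
    w x * (sp (x i) - mag w i x) + w (flipAt i x) * (sp (flipAt i x i) - mag w i x) = 0 := by
  have h1 : 0 < w (Function.update x i true) + w (Function.update x i false) :=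
    add_pos (hw _) (hw _)
  have hx : x = Function.update x i (x i) := by simp
  cases hb : x i
  · have e1 : flipAt i x = Function.update x i true := by simp [flipAt, hb]
    have e2 : w x = w (Function.update x i false) := by
      conv_lhs => rw [hx, hb]
    rw [e1, e2]
    simp only [Function.update_self, sp, mag]
    field_simp
    simp
    ring
  · have e1 : flipAt i x = Function.update x i false := by simp [flipAt, hb]
    have e2 : w x = w (Function.update x i true) := by
      conv_lhs => rw [hx, hb]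
    rw [e1, e2]
    simp only [Function.update_self, sp, mag]
    field_simp
    simp
    ring

lemma pair_nonneg {n : ℕ} (w : (Fin n → Bool) → ℝ) (hw : ∀ x, 0 < w x) (i : Fin n)
    (x : Fin n → Bool) :
    0 ≤ w x * (sp (x i) * mag w i x) + w (flipAt i x) * (sp (flipAt i x i) * mag w i x) := by
  have h := pair_zero w hw i x
  have e : w x * (sp (x i) * mag w i x) + w (flipAt i x) * (sp (flipAt i x i) * mag w i x)
      = (w x + w (flipAt i x)) * mag w i x ^ 2 := by
    have : w x * sp (x i) + w (flipAt i x) * sp (flipAt i x i)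
      = (w x + w (flipAt i x)) * mag w i x := by linarith
    calc _ = (w x * sp (x i) + w (flipAt i x) * sp (flipAt i x i)) * mag w i x := by ring
      _ = _ := by rw [this]; ring
  rw [e]
  have := hw x
  have := hw (flipAt i x)
  positivity

/-- functions not depending on spin `i` are orthogonal to `x_i - m_i(x)` -/
lemma sum_orth {n : ℕ} (w : (Fin n → Bool) → ℝ) (hw : ∀ x, 0 < w x) (i : Fin n)
    (h : (Fin n → Bool) → ℝ) (hh : ∀ x, h (flipAt i x) = h x) :
    ∑ x, w x * (h x * (sp (x i) - mag w i x)) = 0 := by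
  have h2 : ∑ x, w x * (h x * (sp (x i) - mag w i x))
      = ∑ x, w (flipAt i x) * (h x * (sp (flipAt i x i) - mag w i x)) := by
    rw [sum_flip i]
    apply Finset.sum_congr rfl
    intro x _
    rw [hh, mag_flip]
  have h3 : ∑ x, w x * (h x * (sp (x i) - mag w i x))
      + ∑ x, w (flipAt i x) * (h x * (sp (flipAt i x i) - mag w i x)) = 0 := by
    rw [← Finset.sum_add_distrib]
    apply Finset.sum_eq_zero
    intro x _
    have := pair_zero w hw i x
    calc _ = h x * (w x * (sp (x i) - mag w i x)
        + w (flipAt i x) * (sp (flipAt i x i) - mag w i x)) := by ring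
      _ = 0 := by rw [this, mul_zero]
  linarith

lemma sum_pos' {n : ℕ} (w : (Fin n → Bool) → ℝ) (hw : ∀ x, 0 < w x) (i : Fin n) :
    0 ≤ ∑ x, w x * (sp (x i) * mag w i x) := by
  have h2 : ∑ x, w x * (sp (x i) * mag w i x)
      = ∑ x, w (flipAt i x) * (sp (flipAt i x i) * mag w i x) := by
    rw [sum_flip i]
    apply Finset.sum_congr rfl
    intro x _
    rw [mag_flip]
  have h3 : 0 ≤ ∑ x, w x * (sp (x i) * mag w i x)
      + ∑ x, w (flipAt i x) * (sp (flipAt i x i) * mag w i x) := by
    rw [← Finset.sum_add_distrib]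
    exact Finset.sum_nonneg (fun x _ => pair_nonneg w hw i x)
  linarith

/-- the linear test function -/
def lin {n : ℕ} (y : Fin n → Bool) (x : Fin n → Bool) : ℝ := ∑ j, sp (x j) * sp (y j)

lemma lin_update {n : ℕ} (y x : Fin n → Bool) (i : Fin n) (b : Bool) :
    lin y (Function.update x i b) = lin y x + (sp b - sp (x i)) * sp (y i) := by
  unfold lin
  rw [← Finset.add_sum_erase _ _ (Finset.mem_univ i), ← Finset.add_sum_erase _ (fun j => sp (x j) * sp (y j)) (Finset.mem_univ i)]
  have : ∑ j ∈ univ.erase i, sp (Function.update x i b j) * sp (y j)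
      = ∑ j ∈ univ.erase i, sp (x j) * sp (y j) := by
    apply Finset.sum_congr rfl
    intro j hj
    have : j ≠ i := Finset.ne_of_mem_erase hj
    simp [this]
  rw [this]
  simp
  ring

lemma lin_sub_heat {n : ℕ} (w : (Fin n → Bool) → ℝ) (hw : ∀ x, 0 < w x) (y x : Fin n → Bool)
    (i : Fin n) : lin y x - heat w i (lin y) x = sp (y i) * (sp (x i) - mag w i x) := by
  have h1 : 0 < w (Function.update x i true) + w (Function.update x i false) :=
    add_pos (hw _) (hw _)
  have ht : sp true = 1 := by simp [sp]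
  have hf : sp false = -1 := by simp [sp]
  unfold heat mag
  rw [lin_update, lin_update, ht, hf]
  generalize sp (x i) = a
  generalize sp (y i) = b
  field_simp
  ring

lemma Z_pos {n : ℕ} (w : (Fin n → Bool) → ℝ) (hw : ∀ x, 0 < w x) : 0 < ∑ z, w z :=
  Finset.sum_pos (fun x _ => hw x) Finset.univ_nonempty

lemma lin_flip {n : ℕ} (y x : Fin n → Bool) (i : Fin n) :
    lin y (flipAt i x) - sp (flipAt i x i) * sp (y i) = lin y x - sp (x i) * sp (y i) := by
  unfold flipAt
  rw [lin_update]
  simp
  ring

lemma one_site {n : ℕ} (w : (Fin n → Bool) → ℝ) (hw : ∀ x, 0 < w x) (y : Fin n → Bool)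
    (i : Fin n) :
    ∑ x, w x * (lin y x * (sp (y i) * (sp (x i) - mag w i x))) ≤ ∑ x, w x := by
  have h1 := sum_orth w hw i (fun x => lin y x - sp (x i) * sp (y i)) (fun x => lin_flip y x i)
  have h2 := sum_pos' w hw i
  have h3 : ∑ x, w x * (lin y x * (sp (y i) * (sp (x i) - mag w i x)))
      = sp (y i) * ∑ x, w x * ((lin y x - sp (x i) * sp (y i)) * (sp (x i) - mag w i x))
        + (∑ x, w x - ∑ x, w x * (sp (x i) * mag w i x)) := by
    rw [Finset.mul_sum, ← Finset.sum_sub_distrib, ← Finset.sum_add_distrib]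
    apply Finset.sum_congr rfl
    intro x _
    have e1 := sp_sq (y i)
    have e2 := sp_sq (x i)
    linear_combination (w x * sp (x i) * (sp (x i) - mag w i x)) * e1 + w x * e2
  rw [h3, h1]
  linarith

lemma dir_lin {n : ℕ} (w : (Fin n → Bool) → ℝ) (hw : ∀ x, 0 < w x) (y : Fin n → Bool) :
    dirichlet w (lin y) ≤ n := by
  have hZ := Z_pos w hw
  unfold dirichlet mean gibbs
  have e : ∑ x, w x / (∑ z, w z) * (lin y x * ∑ i, (lin y x - heat w i (lin y) x))
      = (∑ i, ∑ x, w x * (lin y x * (sp (y i) * (sp (x i) - mag w i x)))) / ∑ z, w z := by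
    rw [Finset.sum_comm, Finset.sum_div]
    apply Finset.sum_congr rfl
    intro x _
    rw [Finset.mul_sum, Finset.mul_sum, Finset.sum_div]
    apply Finset.sum_congr rfl
    intro i _
    rw [lin_sub_heat w hw]
    ring
  rw [e, div_le_iff₀ hZ]
  calc _ ≤ ∑ _i : Fin n, ∑ z, w z := Finset.sum_le_sum (fun i _ => one_site w hw y i)
    _ = n * ∑ z, w z := by simp

lemma mean_lin {n : ℕ} (w : (Fin n → Bool) → ℝ)
    (hs : ∀ x, w (fun i => !(x i)) = w x) (y : Fin n → Bool) : mean w (lin y) = 0 := by
  unfold mean gibbs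
  have hinv : Function.Involutive (fun (x : Fin n → Bool) (i : Fin n) => !(x i)) := by
    intro x; funext i; simp
  have h := Equiv.sum_comp (Equiv.ofBijective _ hinv.bijective)
    (fun x => w x / (∑ z, w z) * lin y x)
  have h2 : ∀ x : Fin n → Bool, lin y (fun i => !(x i)) = - lin y x := by
    intro x
    unfold lin
    rw [← Finset.sum_neg_distrib]
    apply Finset.sum_congr rfl
    intro i _
    rw [sp_not]; ring
  have h3 : ∑ x : Fin n → Bool, w (fun i => !(x i)) / (∑ z, w z) * lin y (fun i => !(x i))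
      = - ∑ x, w x / (∑ z, w z) * lin y x := by
    rw [← Finset.sum_neg_distrib]
    apply Finset.sum_congr rfl
    intro x _
    rw [hs, h2]; ring
  have h4 : ∑ x : Fin n → Bool, w (fun i => !(x i)) / (∑ z, w z) * lin y (fun i => !(x i))
      = ∑ x, w x / (∑ z, w z) * lin y x := h
  linarith

theorem poincare_bound {n : ℕ} (hn : 0 < n) (w : (Fin n → Bool) → ℝ) (hw : ∀ x, 0 < w x)
    (hs : ∀ x, w (fun i => !(x i)) = w x) (γ : ℝ)
    (hγ : ∀ f : (Fin n → Bool) → ℝ, γ * variance w f ≤ dirichlet w f) :
    γ * (n * overlapSq w) ≤ 1 := by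
  have hZ := Z_pos w hw
  have hn' : (0 : ℝ) < n := by exact_mod_cast hn
  have hg : ∑ y, gibbs w y = 1 := by
    unfold gibbs
    rw [← Finset.sum_div, div_self hZ.ne']
  have hg0 : ∀ y, 0 ≤ gibbs w y := fun y => div_nonneg (hw y).le hZ.le
  have key : ∀ y, γ * mean w (fun x => lin y x ^ 2) ≤ n := by
    intro y
    have h1 := hγ (lin y)
    have h2 := dir_lin w hw y
    have h3 := mean_lin w hs y
    unfold variance at h1
    rw [h3] at h1
    have : γ * mean w (fun x => lin y x ^ 2) = γ * (mean w (fun x => lin y x ^ 2) - 0 ^ 2) := by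
      ring
    rw [this]; linarith
  have h5 : overlapSq w = (∑ y, gibbs w y * mean w (fun x => lin y x ^ 2)) / n ^ 2 := by
    unfold overlapSq
    conv_lhs => unfold mean
    rw [Finset.sum_div]
    apply Finset.sum_congr rfl
    intro y _
    rw [mul_div_assoc]
    congr 1
    unfold mean
    rw [Finset.sum_div]
    apply Finset.sum_congr rfl
    intro x _
    show gibbs w x * overlap x y ^ 2 = gibbs w x * lin y x ^ 2 / (n : ℝ) ^ 2
    unfold overlap lin
    rw [div_pow]; ring
  have h6 : γ * ∑ y, gibbs w y * mean w (fun x => lin y x ^ 2) ≤ n := by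
    rw [Finset.mul_sum]
    calc _ = ∑ y, gibbs w y * (γ * mean w (fun x => lin y x ^ 2)) := by
          apply Finset.sum_congr rfl; intro y _; ring
      _ ≤ ∑ y, gibbs w y * n := by
          apply Finset.sum_le_sum
          intro y _
          exact mul_le_mul_of_nonneg_left (key y) (hg0 y)
      _ = n := by rw [← Finset.sum_mul, hg, one_mul]
  rw [h5]
  have : γ * (n * ((∑ y, gibbs w y * mean w (fun x => lin y x ^ 2)) / n ^ 2))
      = (γ * ∑ y, gibbs w y * mean w (fun x => lin y x ^ 2)) / n := by
    field_simp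
  rw [this, div_le_one hn']
  exact h6

theorem gap_bound {n : ℕ} (hn : 0 < n) (w : (Fin n → Bool) → ℝ) (hw : ∀ x, 0 < w x)
    (hs : ∀ x, w (fun i => !(x i)) = w x) : gap w * (n * overlapSq w) ≤ 1 := by
  have hZ := Z_pos w hw
  have hA : 0 ≤ n * overlapSq w := by
    apply mul_nonneg (Nat.cast_nonneg n)
    unfold overlapSq mean
    apply Finset.sum_nonneg; intro y _
    apply mul_nonneg (div_nonneg (hw y).le hZ.le)
    apply Finset.sum_nonneg; intro x _
    exact mul_nonneg (div_nonneg (hw x).le hZ.le) (sq_nonneg _)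
  rcases hA.eq_or_lt with h0 | h0
  · rw [← h0]; simp
  · have : gap w ≤ 1 / (n * overlapSq w) := by
      apply Real.sSup_le
      · intro γ hγ
        rw [le_div_iff₀ h0]
        exact poincare_bound hn w hw hs γ hγ
      · positivity
    rwa [le_div_iff₀ h0] at this

lemma wt_pos {n : ℕ} (β : ℝ) (g : Fin n → Fin n → ℝ) (x : Fin n → Bool) : 0 < wt β g x :=
  Real.exp_pos _

lemma wt_symm {n : ℕ} (β : ℝ) (g : Fin n → Fin n → ℝ) (x : Fin n → Bool) :
    wt β g (fun i => !(x i)) = wt β g x := by
  unfold wt energy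
  congr 2
  apply Finset.sum_congr rfl; intro i _
  apply Finset.sum_congr rfl; intro j _
  rw [sp_not, sp_not]
  split_ifs
  · ring
  · rfl

end

end Vale.Agent.H15.P150
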